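import Crest.Agent.R35.Game

/-! A reflective checker for Snaky certificates and its soundness. -/

set_option autoImplicit false

namespace Crest.Agent.R35

open Crest.CombinatoricsR.PolyominoGame

/-- One certificate entry: length, move, packed core, packed neighbourhood, packed references. -/
structure Pat where
  len : ℕ
  mv : ℕ
  core : ℕ
  nbh : ℕ
  refs : ℕ

/-- Binary tree of certificate entries. -/
inductive T where
  | leaf : ℕ → ℕ → ℕ → ℕ → ℕ → T
  | node : T → T → T

noncomputable def T.get (t : T) : ℕ → Pat :=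
  T.rec (motive := fun _ => ℕ → Pat) (fun a b c d e _ => ⟨a, b, c, d, e⟩)
    (fun _ _ a b i => cond (Nat.beq (Nat.mod i 2) 0) (a (Nat.div i 2)) (b (Nat.div i 2))) t

noncomputable def T.all (f : Pat → Bool) (t : T) : Bool :=
  T.rec (motive := fun _ => Bool) (fun a b c d e => f ⟨a, b, c, d, e⟩)
    (fun _ _ a b => and a b) t

def T.Mem (p : Pat) : T → Prop
  | .leaf a b c d e => p = ⟨a, b, c, d, e⟩
  | .node l r => T.Mem p l ∨ T.Mem p r

theorem T.get_mem (t : T) : ∀ i, T.Mem (t.get i) t := by
  induction t with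
  | leaf a b c d e => intro i; rfl
  | node l r ihl ihr =>
    intro i
    show T.Mem (cond (Nat.beq (Nat.mod i 2) 0) (l.get (Nat.div i 2)) (r.get (Nat.div i 2))) _
    cases Nat.beq (Nat.mod i 2) 0
    · exact Or.inr (ihr _)
    · exact Or.inl (ihl _)

theorem T.all_node (f : Pat → Bool) (l r : T) :
    T.all f (.node l r) = (T.all f l && T.all f r) := rfl

theorem T.all_spec (f : Pat → Bool) (t : T) (h : t.all f = true) :
    ∀ p, T.Mem p t → f p = true := by
  induction t with
  | leaf a b c d e => intro p hp; cases hp; exact h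
  | node l r ihl ihr =>
    rw [T.all_node, Bool.and_eq_true] at h
    intro p hp
    rcases hp with hp | hp
    · exact ihl h.1 p hp
    · exact ihr h.2 p hp

/-- Unpack a list of numbers written in base `b`. -/
noncomputable def dec (b f : ℕ) : ℕ → List ℕ :=
  Nat.rec (motive := fun _ => ℕ → List ℕ) (fun _ => [])
    (fun _ ih n => cond (Nat.beq n 0) [] (Nat.pred (Nat.mod n b) :: ih (Nat.div n b))) f

noncomputable def cells (n : ℕ) : List ℕ := dec 4096 1000 n

def cellOf (c : ℕ) : Cell := (((c % 64 : ℕ) : ℤ), ((c / 64 : ℕ) : ℤ))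

theorem cellOf_inj {a b : ℕ} (h : cellOf a = cellOf b) : a = b := by
  simp only [cellOf, Prod.mk.injEq] at h
  omega

def setL (L : List ℕ) : Set Cell := {p | ∃ c ∈ L, p = cellOf c}

/-- Bit mask of the image of a list under `f`. -/
noncomputable def mask (f : ℕ → ℕ) (L : List ℕ) : ℕ :=
  List.rec (motive := fun _ => ℕ) 0 (fun c _ ih => Nat.lor (Nat.shiftLeft 1 (f c)) ih) L

theorem testBit_mask (f : ℕ → ℕ) (L : List ℕ) (i : ℕ) :
    (mask f L).testBit i = true ↔ ∃ c ∈ L, f c = i := by
  induction L with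
  | nil => simp [mask]
  | cons c L ih =>
    have : mask f (c :: L) = (1 <<< f c) ||| mask f L := rfl
    rw [this, Nat.testBit_or, Bool.or_eq_true, ih, Nat.one_shiftLeft, Nat.testBit_two_pow]
    simp

noncomputable def allL (f : ℕ → Bool) (L : List ℕ) : Bool :=
  List.rec (motive := fun _ => Bool) true (fun c _ ih => and (f c) ih) L

theorem allL_spec (f : ℕ → Bool) (L : List ℕ) (h : allL f L = true) : ∀ c ∈ L, f c = true := by
  induction L with
  | nil => simp
  | cons c L ih =>
    have e : allL f (c :: L) = (f c && allL f L) := rfl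
    rw [e, Bool.and_eq_true] at h
    intro d hd
    rcases List.mem_cons.1 hd with rfl | hd
    · exact h.1
    · exact ih h.2 d hd

def sub (a b : ℕ) : Bool := Nat.beq (Nat.land a b) a

theorem sub_spec {a b : ℕ} (h : sub a b = true) {i : ℕ} (hi : a.testBit i = true) :
    b.testBit i = true := by
  have e : a &&& b = a := Nat.eq_of_beq_eq_true h
  have := Nat.testBit_and a b i
  rw [e, hi] at this
  simpa using this.symm

def trc (sw fx fy : Bool) (tx ty c : ℕ) : ℕ :=
  Nat.add
    (cond fx (Nat.sub tx (cond sw (Nat.div c 64) (Nat.mod c 64)))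
      (Nat.add tx (cond sw (Nat.div c 64) (Nat.mod c 64))))
    (Nat.mul 64 (cond fy (Nat.sub ty (cond sw (Nat.mod c 64) (Nat.div c 64)))
      (Nat.add ty (cond sw (Nat.mod c 64) (Nat.div c 64)))))

def okc (sw fx fy : Bool) (tx ty c : ℕ) : Bool :=
  and (cond fx (Nat.ble (cond sw (Nat.div c 64) (Nat.mod c 64)) tx)
      (Nat.ble (Nat.add tx (cond sw (Nat.div c 64) (Nat.mod c 64))) 63))
    (cond fy (Nat.ble (cond sw (Nat.mod c 64) (Nat.div c 64)) ty) true)

theorem cellOf_trc (sw fx fy : Bool) (tx ty c : ℕ) (htx : tx < 64)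
    (h : okc sw fx fy tx ty c = true) :
    cellOf (trc sw fx fy tx ty c) = symE sw fx fy tx ty (cellOf c) := by
  have e1 : ∀ a b, Nat.div a b = a / b := fun _ _ => rfl
  have e2 : ∀ a b, Nat.mod a b = a % b := fun _ _ => rfl
  cases sw <;> cases fx <;> cases fy <;>
    simp only [okc, trc, cond_true, cond_false, Bool.and_eq_true, Nat.ble_eq, e1, e2,
      Nat.add_eq, Nat.sub_eq, Nat.mul_eq, and_true] at h ⊢ <;>
    simp only [cellOf, symE, Equiv.coe_fn_mk, if_true, if_false, Bool.false_eq_true,
      Prod.mk.injEq] <;> omega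

/-- One reference, already decoded. -/
noncomputable def refStep (len mC mZ : ℕ) (k : ℕ → Bool) (I : ℕ) (q : Pat)
    (sw fx fy : Bool) (tx ty : ℕ) (LC LN : List ℕ) (mN : ℕ) : Bool :=
  and (Nat.ble (Nat.succ q.len) len)
    (and (allL (okc sw fx fy tx ty) LC)
      (and (allL (okc sw fx fy tx ty) LN)
        (and (sub (mask (trc sw fx fy tx ty) LC) mC)
          (and (sub mN mZ) (k (Nat.land I mN))))))

noncomputable def refStep2 (len mC mZ : ℕ) (k : ℕ → Bool) (I : ℕ) (q : Pat)
    (sw fx fy : Bool) (tx ty : ℕ) (LC LN : List ℕ) : Bool :=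
  refStep len mC mZ k I q sw fx fy tx ty LC LN (mask (trc sw fx fy tx ty) LN)

noncomputable def refStep3 (len mC mZ : ℕ) (k : ℕ → Bool) (I : ℕ) (q : Pat) (r : ℕ) : Bool :=
  refStep2 len mC mZ k I q
    (Nat.beq (Nat.mod (Nat.div r 16384) 2) 1) (Nat.beq (Nat.mod (Nat.div r 8192) 2) 1)
    (Nat.beq (Nat.mod (Nat.div r 4096) 2) 1) (Nat.mod r 64) (Nat.mod (Nat.div r 64) 64)
    (cells q.core) (cells q.nbh)

noncomputable def goRefs (root : T) (len mC mZ : ℕ) (L : List ℕ) : ℕ → Bool :=
  List.rec (motive := fun _ => ℕ → Bool) (fun I => sub I mC)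
    (fun r _ ih I => refStep3 len mC mZ ih I (root.get (Nat.div r 32768)) r) L

/-- What a validated reference gives. -/
def Good (root : T) (len mC mZ : ℕ) (x : Cell) : Prop :=
  ∃ (q : Pat) (sw fx fy : Bool) (tx ty : ℤ), T.Mem q root ∧ q.len < len ∧
    (∀ p ∈ symE sw fx fy tx ty '' setL (cells q.core), ∃ i, p = cellOf i ∧ mC.testBit i = true) ∧
    (∀ p ∈ symE sw fx fy tx ty '' setL (cells q.nbh), ∃ i, p = cellOf i ∧ mZ.testBit i = true) ∧
    x ∉ symE sw fx fy tx ty '' setL (cells q.nbh)

theorem image_bits (sw fx fy : Bool) (tx ty : ℕ) (htx : tx < 64) (L : List ℕ)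
    (h : allL (okc sw fx fy tx ty) L = true) :
    ∀ p ∈ symE sw fx fy tx ty '' setL L,
      ∃ i, p = cellOf i ∧ (mask (trc sw fx fy tx ty) L).testBit i = true := by
  rintro p ⟨_, ⟨c, hc, rfl⟩, rfl⟩
  exact ⟨_, (cellOf_trc sw fx fy tx ty c htx (allL_spec _ _ h c hc)).symm,
    (testBit_mask _ _ _).2 ⟨c, hc, rfl⟩⟩

theorem refStep3_spec (root : T) (len mC mZ : ℕ) (k : ℕ → Bool) (I : ℕ) (q : Pat)
    (hq : T.Mem q root) (r : ℕ) (h : refStep3 len mC mZ k I q r = true) (x : Cell) :
    Good root len mC mZ x ∨ ∃ mN i, x = cellOf i ∧ mN.testBit i = true ∧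
      k (I &&& mN) = true := by
  unfold refStep3 refStep2 refStep at h
  generalize Nat.beq (Nat.mod (Nat.div r 16384) 2) 1 = sw at h
  generalize Nat.beq (Nat.mod (Nat.div r 8192) 2) 1 = fx at h
  generalize Nat.beq (Nat.mod (Nat.div r 4096) 2) 1 = fy at h
  have htx : Nat.mod r 64 < 64 := Nat.mod_lt _ (by norm_num)
  generalize Nat.mod r 64 = tx at h htx
  generalize Nat.mod (Nat.div r 64) 64 = ty at h
  simp only [Bool.and_eq_true, Nat.ble_eq] at h
  obtain ⟨h1, h2, h3, h4, h5, h6⟩ := h
  by_cases hx : x ∈ symE sw fx fy tx ty '' setL (cells q.nbh)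
  · right
    obtain ⟨i, e, hi⟩ := image_bits sw fx fy tx ty htx _ h3 x hx
    exact ⟨_, i, e, hi, h6⟩
  · left
    refine ⟨q, sw, fx, fy, tx, ty, hq, h1, fun p hp => ?_, fun p hp => ?_, hx⟩
    · obtain ⟨i, e, hi⟩ := image_bits sw fx fy tx ty htx _ h2 p hp
      exact ⟨i, e, sub_spec h4 hi⟩
    · obtain ⟨i, e, hi⟩ := image_bits sw fx fy tx ty htx _ h3 p hp
      exact ⟨i, e, sub_spec h5 hi⟩

theorem goRefs_spec (root : T) (len mC mZ : ℕ) (i : ℕ) :
    ∀ (L : List ℕ) (I : ℕ), goRefs root len mC mZ L I = true → I.testBit i = true →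
      Good root len mC mZ (cellOf i) ∨ mC.testBit i = true := by
  intro L
  induction L with
  | nil => intro I h hi; exact Or.inr (sub_spec h hi)
  | cons r L ih =>
    intro I h hi
    rcases refStep3_spec root len mC mZ _ I _ (root.get_mem _) r h (cellOf i) with
      hg | ⟨mN, j, e, hj, hk⟩
    · exact Or.inl hg
    · have := cellOf_inj e
      subst this
      exact ih _ hk (by rw [Nat.testBit_and, hi, hj]; rfl)

noncomputable def check3 (root : T) (len mC mZ : ℕ) (L : List ℕ) : Bool :=
  List.rec (motive := fun _ => Bool) false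
    (fun r L' _ => refStep3 len mC mZ (goRefs root len mC mZ L') mZ
      (root.get (Nat.div r 32768)) r) L

noncomputable def check2 (root : T) (p : Pat) (m0 mN : ℕ) : Bool :=
  cond (Nat.beq p.len 0) (sub 442721857769029238799 m0)
    (and (sub (Nat.shiftLeft 1 p.mv) mN)
      (check3 root p.len (Nat.lor (Nat.shiftLeft 1 p.mv) m0) (Nat.lor m0 mN)
        (dec 4294967296 1000 p.refs)))

noncomputable def check (root : T) (p : Pat) : Bool :=
  check2 root p (mask (fun c => c) (cells p.core)) (mask (fun c => c) (cells p.nbh))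

theorem check3_spec (root : T) (len mC mZ : ℕ) (L : List ℕ)
    (h : check3 root len mC mZ L = true) (x : Cell) :
    Good root len mC mZ x ∨ ∃ i, x = cellOf i ∧ mC.testBit i = true := by
  cases L with
  | nil => exact absurd h (by simp [check3])
  | cons r L =>
    have h' : refStep3 len mC mZ (goRefs root len mC mZ L) mZ
      (root.get (Nat.div r 32768)) r = true := h
    by_cases hx : ∃ i, x = cellOf i ∧ mZ.testBit i = true
    · obtain ⟨i, rfl, hi⟩ := hx
      rcases goRefs_spec root len mC mZ i (r :: L) mZ h' hi with hg | hg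
      · exact Or.inl hg
      · exact Or.inr ⟨i, rfl, hg⟩
    · left
      -- any reference works
      unfold refStep3 refStep2 refStep at h'
      generalize Nat.beq (Nat.mod (Nat.div r 16384) 2) 1 = sw at h'
      generalize Nat.beq (Nat.mod (Nat.div r 8192) 2) 1 = fx at h'
      generalize Nat.beq (Nat.mod (Nat.div r 4096) 2) 1 = fy at h'
      have htx : Nat.mod r 64 < 64 := Nat.mod_lt _ (by norm_num)
      generalize Nat.mod r 64 = tx at h' htx
      generalize Nat.mod (Nat.div r 64) 64 = ty at h'
      simp only [Bool.and_eq_true, Nat.ble_eq] at h'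
      obtain ⟨h1, h2, h3, h4, h5, -⟩ := h'
      refine ⟨_, sw, fx, fy, tx, ty, root.get_mem _, h1, fun p hp => ?_, fun p hp => ?_,
        fun hp => ?_⟩
      · obtain ⟨i, e, hi⟩ := image_bits sw fx fy tx ty htx _ h2 p hp
        exact ⟨i, e, sub_spec h4 hi⟩
      · obtain ⟨i, e, hi⟩ := image_bits sw fx fy tx ty htx _ h3 p hp
        exact ⟨i, e, sub_spec h5 hi⟩
      · obtain ⟨i, e, hi⟩ := image_bits sw fx fy tx ty htx _ h3 x hp
        exact hx ⟨i, e, sub_spec h5 hi⟩

theorem mem_setL_of_bit (L : List ℕ) (i : ℕ) (h : (mask (fun c => c) L).testBit i = true) :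
    cellOf i ∈ setL L := by
  obtain ⟨c, hc, e⟩ := (testBit_mask _ _ _).1 h
  exact ⟨c, hc, by rw [← e]⟩

theorem sound (root : T) (h : ∀ p, T.Mem p root → check root p = true) :
    ∀ n (p : Pat), p.len = n → T.Mem p root →
      PW p.len (setL (cells p.core)) (setL (cells p.nbh)) := by
  intro n
  induction n using Nat.strong_induction_on with
  | _ n ih =>
    intro p hn hp
    have hc := h p hp
    unfold check check2 at hc
    cases hl : p.len with
    | zero =>
      rw [hl] at hc
      have hc' : sub 442721857769029238799 (mask (fun c => c) (cells p.core)) = true := hc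
      intro M B _ hC _
      refine ⟨(0, 0), 1, 1, Or.inl rfl, Or.inl rfl, Or.inl ?_⟩
      have key : ∀ i, Nat.testBit 442721857769029238799 i = true → cellOf i ∈ (↑M : Set Cell) :=
        fun i hi => hC (mem_setL_of_bit _ i (sub_spec hc' hi))
      intro q hq
      simp only [snaky, Finset.mem_insert, Finset.mem_singleton] at hq
      rcases hq with rfl | rfl | rfl | rfl | rfl | rfl
      · exact key 0 (by decide)
      · exact key 1 (by decide)
      · exact key 2 (by decide)
      · exact key 3 (by decide)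
      · exact key 67 (by decide)
      · exact key 68 (by decide)
    | succ k =>
      rw [hl] at hc
      have hc' : (sub (Nat.shiftLeft 1 p.mv) (mask (fun c => c) (cells p.nbh)) &&
          check3 root (k + 1) (Nat.lor (Nat.shiftLeft 1 p.mv) (mask (fun c => c) (cells p.core)))
            (Nat.lor (mask (fun c => c) (cells p.core)) (mask (fun c => c) (cells p.nbh)))
            (dec 4294967296 1000 p.refs)) = true := hc
      rw [Bool.and_eq_true] at hc'
      obtain ⟨h1, h2⟩ := hc'
      have hbit : ∀ i, (Nat.shiftLeft 1 p.mv).testBit i = true ↔ p.mv = i := by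
        intro i
        show (1 <<< p.mv).testBit i = true ↔ _
        rw [Nat.one_shiftLeft, Nat.testBit_two_pow]; simp
      have hC1 : ∀ i, (Nat.lor (Nat.shiftLeft 1 p.mv)
          (mask (fun c => c) (cells p.core))).testBit i = true →
          cellOf i ∈ insert (cellOf p.mv) (setL (cells p.core)) := by
        intro i hi
        have : (Nat.shiftLeft 1 p.mv ||| mask (fun c => c) (cells p.core)).testBit i = true := hi
        rw [Nat.testBit_or, Bool.or_eq_true] at this
        rcases this with t | t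
        · rw [← (hbit i).1 t]; exact Set.mem_insert _ _
        · exact Set.mem_insert_of_mem _ (mem_setL_of_bit _ _ t)
      refine PW_rule (m := cellOf p.mv) (mem_setL_of_bit _ _ (sub_spec h1 ((hbit _).2 rfl))) ?_
      intro x hx
      rcases check3_spec _ _ _ _ _ h2 x with ⟨q, sw, fx, fy, tx, ty, g1, g2, g3, g4, g5⟩ |
        ⟨i, e, hi⟩
      · refine ⟨q.len, _, _, by omega,
          PW_image _ (symE_copy sw fx fy tx ty) (ih q.len (by omega) q rfl g1), ?_, ?_, g5⟩
        · intro c hc
          obtain ⟨i, rfl, hi⟩ := g3 c hc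
          exact hC1 i hi
        · intro c hc
          obtain ⟨i, rfl, hi⟩ := g4 c hc
          have : (mask (fun c => c) (cells p.core) |||
            mask (fun c => c) (cells p.nbh)).testBit i = true := hi
          rw [Nat.testBit_or, Bool.or_eq_true] at this
          rcases this with t | t
          · exact Or.inl (mem_setL_of_bit _ _ t)
          · exact Or.inr (mem_setL_of_bit _ _ t)
      · exact absurd (e ▸ hC1 i hi) hx

theorem G_of_cert (root : T) (h : root.all (check root) = true) (i : ℕ)
    (h1 : (root.get i).core = 0) (h2 : (root.get i).len ≤ 21) : G 21 ∅ ∅ := by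
  have := sound root (T.all_spec _ _ h) _ (root.get i) rfl (root.get_mem i)
  refine G_mono h2 (this ∅ ∅ (by simp) ?_ (by simp))
  rw [h1]
  rintro p ⟨c, hc, -⟩
  have : cells 0 = [] := rfl
  rw [this] at hc
  simp at hc

end Crest.Agent.R35
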