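import Crest.Agent.R35.Root

namespace Crest.Agent.R35

theorem v101 : T.all (check root) t101 = true := by decide +kernel

end Crest.Agent.R35
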