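import Crest.Agent.R35.V000
import Crest.Agent.R35.V001
import Crest.Agent.R35.V010
import Crest.Agent.R35.V011
import Crest.Agent.R35.V100
import Crest.Agent.R35.V101
import Crest.Agent.R35.V110
import Crest.Agent.R35.V111

namespace Crest.Agent.R35

theorem root_ok : T.all (check root) root = true := by
  have h : T.all (check root) (.node (.node (.node t000 t001) (.node t010 t011)) (.node (.node t100 t101) (.node t110 t111))) = true := by
    simp only [T.all_node, v000, v001, v010, v011, v100, v101, v110, v111, Bool.and_self]
  exact h

theorem G21 : G 21 ∅ ∅ :=
  G_of_cert root root_ok 0 (by decide +kernel) (by decide +kernel)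

end Crest.Agent.R35
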