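import Mathlib
import Crest.Prelude.Def_PolyominoGame

/-! Game semantics for the Snaky Maker-Breaker game: winning positions, patterns, and the
three rules (base, symmetry, combination) used by the certificate checker. -/

set_option autoImplicit false

namespace Crest.Agent.R35

open Crest.CombinatoricsR.PolyominoGame

abbrev Cell := ℤ × ℤ

/-- `G n M B`: Maker (owning `M`, Breaker owning `B`) is to move and owns a copy after `n` more
claims. -/
def G : ℕ → Finset Cell → Finset Cell → Prop
  | 0, M, _ => ContainsCopy (↑M : Set Cell)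
  | n + 1, M, B => ∃ m, m ∉ M ∧ m ∉ B ∧
      ∀ x, x ∉ insert m M → x ∉ B → G n (insert m M) (insert x B)

theorem containsCopy_mono {X Y : Set Cell} (h : X ⊆ Y) (hX : ContainsCopy X) :
    ContainsCopy Y := by
  obtain ⟨t, e1, e2, h1, h2, h3⟩ := hX
  refine ⟨t, e1, e2, h1, h2, ?_⟩
  rcases h3 with h3 | h3
  · exact Or.inl fun p hp => h (h3 p hp)
  · exact Or.inr fun p hp => h (h3 p hp)

theorem exists_fresh (M B : Finset Cell) : ∃ m, m ∉ M ∧ m ∉ B := by
  obtain ⟨m, hm⟩ := Infinite.exists_notMem_finset (M ∪ B)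
  exact ⟨m, fun h => hm (Finset.mem_union_left _ h), fun h => hm (Finset.mem_union_right _ h)⟩

theorem G_succ : ∀ (n : ℕ) (M B : Finset Cell), G n M B → G (n + 1) M B
  | 0, M, B, h => by
      obtain ⟨m, h1, h2⟩ := exists_fresh M B
      refine ⟨m, h1, h2, fun x _ _ => ?_⟩
      exact containsCopy_mono (by simp) h
  | n + 1, M, B, h => by
      obtain ⟨m, h1, h2, h3⟩ := h
      exact ⟨m, h1, h2, fun x a b => G_succ n _ _ (h3 x a b)⟩

theorem G_mono {n k : ℕ} (h : n ≤ k) {M B : Finset Cell} (hG : G n M B) : G k M B := by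
  induction h with
  | refl => exact hG
  | step _ ih => exact G_succ _ _ _ ih

/-- A pattern: whenever Maker owns `C` and Breaker owns no cell of `N`, Maker (to move) wins in
`n` claims. -/
def PW (n : ℕ) (C N : Set Cell) : Prop :=
  ∀ M B : Finset Cell, Disjoint M B → C ⊆ (↑M : Set Cell) → (∀ c ∈ N, c ∉ B) → G n M B

theorem G_map (g : Cell ≃ Cell) (hg : ∀ X : Set Cell, ContainsCopy X → ContainsCopy (g '' X)) :
    ∀ (n : ℕ) (M B : Finset Cell), G n M B → G n (M.map g.toEmbedding) (B.map g.toEmbedding)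
  | 0, M, B, h => by
      have := hg _ h
      simpa [G, Finset.coe_map] using this
  | n + 1, M, B, h => by
      obtain ⟨m, h1, h2, h3⟩ := h
      refine ⟨g m, by simpa using h1, by simpa using h2, fun x a b => ?_⟩
      have := G_map g hg n _ _ (h3 (g.symm x) (by
        intro hx
        apply a
        rcases Finset.mem_insert.1 hx with hx | hx
        · rw [← hx]; simp
        · exact Finset.mem_insert_of_mem (by simpa using hx)) (by simpa using b))
      simpa [Finset.map_insert] using this

theorem PW_image (g : Cell ≃ Cell) (hg : ∀ X : Set Cell, ContainsCopy X → ContainsCopy (g '' X))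
    {n : ℕ} {C N : Set Cell} (h : PW n C N) : PW n (g '' C) (g '' N) := by
  intro M B hd hC hN
  have := h (M.map g.symm.toEmbedding) (B.map g.symm.toEmbedding)
    ((Finset.disjoint_map _).2 hd)
    (fun c hc => by
      have : g c ∈ M := hC ⟨c, hc, rfl⟩
      simpa using this)
    (fun c hc => by
      have : g c ∉ B := hN _ ⟨c, hc, rfl⟩
      simpa using this)
  have h2 := G_map g hg n _ _ this
  simpa [Finset.map_map] using h2

theorem PW_rule {n : ℕ} {C N : Set Cell} {m : Cell} (hm : m ∈ N)
    (h : ∀ x, x ∉ insert m C → ∃ (k : ℕ) (C' N' : Set Cell), k ≤ n ∧ PW k C' N' ∧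
      C' ⊆ insert m C ∧ N' ⊆ C ∪ N ∧ x ∉ N') : PW (n + 1) C N := by
  intro M B hd hC hN
  have : ∃ m', m' ∉ M ∧ m' ∉ B ∧ m ∈ insert m' M := by
    by_cases hM : m ∈ M
    · obtain ⟨m', h1, h2⟩ := exists_fresh M B
      exact ⟨m', h1, h2, Finset.mem_insert_of_mem hM⟩
    · exact ⟨m, hM, hN m hm, Finset.mem_insert_self _ _⟩
  obtain ⟨m', h1, h2, h3⟩ := this
  have hsub : insert m C ⊆ (↑(insert m' M) : Set Cell) := by
    intro c hc
    rcases hc with rfl | hc
    · exact h3
    · exact Finset.mem_coe.2 (Finset.mem_insert_of_mem (hC hc))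
  refine ⟨m', h1, h2, fun x hx hxB => ?_⟩
  obtain ⟨k, C', N', hk, hp, hC', hN', hx'⟩ := h x (fun hh => hx (hsub hh))
  refine G_mono hk (hp _ _ ?_ (hC'.trans hsub) ?_)
  · rw [Finset.disjoint_left]
    intro a ha hb
    rcases Finset.mem_insert.1 hb with rfl | hb
    · exact hx ha
    · rcases Finset.mem_insert.1 ha with rfl | ha
      · exact h2 hb
      · exact Finset.disjoint_left.1 hd ha hb
  · intro c hc hb
    rcases Finset.mem_insert.1 hb with rfl | hb
    · exact hx' hc
    · rcases hN' hc with hc | hc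
      · exact Finset.disjoint_left.1 hd (hC hc) hb
      · exact hN c hc hb

/-- The allowed symmetries. -/
def symE (sw fx fy : Bool) (tx ty : ℤ) : Cell ≃ Cell where
  toFun p :=
    (if fx then tx - (if sw then p.2 else p.1) else tx + (if sw then p.2 else p.1),
     if fy then ty - (if sw then p.1 else p.2) else ty + (if sw then p.1 else p.2))
  invFun q :=
    (if sw then (if fy then ty - q.2 else q.2 - ty) else (if fx then tx - q.1 else q.1 - tx),
     if sw then (if fx then tx - q.1 else q.1 - tx) else (if fy then ty - q.2 else q.2 - ty))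
  left_inv p := by cases sw <;> cases fx <;> cases fy <;> simp
  right_inv p := by cases sw <;> cases fx <;> cases fy <;> simp

theorem symE_copy (sw fx fy : Bool) (tx ty : ℤ) (X : Set Cell) (h : ContainsCopy X) :
    ContainsCopy (symE sw fx fy tx ty '' X) := by
  obtain ⟨t, e1, e2, h1, h2, h3⟩ := h
  have n1 : -e1 = 1 ∨ -e1 = -1 := by omega
  have n2 : -e2 = 1 ∨ -e2 = -1 := by omega
  refine ⟨symE sw fx fy tx ty t,
    if sw then (if fx then -e2 else e2) else (if fx then -e1 else e1),
    if sw then (if fy then -e1 else e1) else (if fy then -e2 else e2),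
    by cases sw <;> cases fx <;> simp only [if_true, if_false, Bool.false_eq_true] <;> assumption,
    by cases sw <;> cases fy <;> simp only [if_true, if_false, Bool.false_eq_true] <;> assumption,
    ?_⟩
  cases sw
  · rcases h3 with h3 | h3
    · left; intro p hp; refine ⟨_, h3 p hp, ?_⟩
      cases fx <;> cases fy <;> simp [symE] <;> (try constructor) <;> ring
    · right; intro p hp; refine ⟨_, h3 p hp, ?_⟩
      cases fx <;> cases fy <;> simp [symE] <;> (try constructor) <;> ring
  · rcases h3 with h3 | h3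
    · right; intro p hp; refine ⟨_, h3 p hp, ?_⟩
      cases fx <;> cases fy <;> simp [symE] <;> (try constructor) <;> ring
    · left; intro p hp; refine ⟨_, h3 p hp, ?_⟩
      cases fx <;> cases fy <;> simp [symE] <;> (try constructor) <;> ring

/-! ### From `G` to a policy -/

open Classical in
/-- Maker's move in a position. -/
noncomputable def pick (n : ℕ) (M B : Finset Cell) : Cell :=
  if h : G (n + 1) M B then Classical.choose h else (0, 0)

theorem pick_spec {n : ℕ} {M B : Finset Cell} (h : G (n + 1) M B) :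
    pick n M B ∉ M ∧ pick n M B ∉ B ∧ ∀ x, x ∉ insert (pick n M B) M → x ∉ B →
      G n (insert (pick n M B) M) (insert x B) := by
  unfold pick
  rw [dif_pos h]
  exact Classical.choose_spec h

noncomputable def stepS (s : ℕ × Finset Cell × Finset Cell) (x : Cell) :
    ℕ × Finset Cell × Finset Cell :=
  (s.1 - 1, insert (pick s.1 s.2.1 s.2.2) s.2.1, insert x s.2.2)

noncomputable def stateS (l : List Cell) : ℕ × Finset Cell × Finset Cell :=
  l.foldl stepS (20, ∅, ∅)

noncomputable def sigma (l : List Cell) : Cell :=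
  pick (stateS l).1 (stateS l).2.1 (stateS l).2.2

theorem stateS_succ (b : ℕ → Cell) (k : ℕ) :
    stateS ((List.range (k + 1)).map b) = stepS (stateS ((List.range k).map b)) (b k) := by
  simp [stateS, List.range_succ, List.foldl_append]

theorem state_inv (h0 : G 21 ∅ ∅) (b : ℕ → Cell)
    (hb : ∀ k : ℕ, k < 20 → (∀ j : ℕ, j ≤ k → b k ≠ makerClaim sigma b j) ∧
        (∀ j : ℕ, j < k → b k ≠ b j)) :
    ∀ k, k ≤ 20 → (stateS ((List.range k).map b)).1 = 20 - k ∧
      (∀ c, c ∈ (stateS ((List.range k).map b)).2.1 ↔ ∃ j, j < k ∧ c = makerClaim sigma b j) ∧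
      (∀ c, c ∈ (stateS ((List.range k).map b)).2.2 ↔ ∃ j, j < k ∧ c = b j) ∧
      G (20 - k + 1) (stateS ((List.range k).map b)).2.1 (stateS ((List.range k).map b)).2.2 := by
  intro k
  induction k with
  | zero => intro _; simpa [stateS] using h0
  | succ k ih =>
    intro hk
    obtain ⟨i1, i2, i3, i4⟩ := ih (by omega)
    have hcl : makerClaim sigma b k = pick (20 - k) (stateS ((List.range k).map b)).2.1
        (stateS ((List.range k).map b)).2.2 := by
      rw [← i1]; rfl
    have hM : ∀ c, c ∈ insert (makerClaim sigma b k) (stateS ((List.range k).map b)).2.1 ↔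
        ∃ j, j < k + 1 ∧ c = makerClaim sigma b j := by
      intro c
      rw [Finset.mem_insert, i2]
      constructor
      · rintro (h | ⟨j, h1, h2⟩)
        · exact ⟨k, by omega, h⟩
        · exact ⟨j, by omega, h2⟩
      · rintro ⟨j, h1, h2⟩
        by_cases hj : j = k
        · left; rw [h2, hj]
        · right; exact ⟨j, by omega, h2⟩
    rw [stateS_succ]
    simp only [stepS, i1, ← hcl]
    refine ⟨by omega, hM, ?_, ?_⟩
    · intro c
      rw [Finset.mem_insert, i3]
      constructor
      · rintro (h | ⟨j, h1, h2⟩)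
        · exact ⟨k, by omega, h⟩
        · exact ⟨j, by omega, h2⟩
      · rintro ⟨j, h1, h2⟩
        by_cases hj : j = k
        · left; rw [h2, hj]
        · right; exact ⟨j, by omega, h2⟩
    · have := (pick_spec i4).2.2 (b k)
      rw [← hcl] at this
      have e : 20 - (k + 1) + 1 = 20 - k := by omega
      rw [e]
      apply this
      · rw [hM]
        rintro ⟨j, h1, h2⟩
        exact (hb k (by omega)).1 j (by omega) h2
      · rw [i3]
        rintro ⟨j, h1, h2⟩
        exact (hb k (by omega)).2 j h1 h2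

theorem policy_of_G (h0 : G 21 ∅ ∅) :
    ∃ σ : List (ℤ × ℤ) → ℤ × ℤ, ∀ b : ℕ → ℤ × ℤ,
      (∀ k : ℕ, k < 20 →
        (∀ j : ℕ, j ≤ k → b k ≠ makerClaim σ b j) ∧
        (∀ j : ℕ, j < k → b k ≠ b j)) →
      (∀ k : ℕ, k ≤ 20 →
        (∀ j : ℕ, j < k → makerClaim σ b k ≠ makerClaim σ b j) ∧
        (∀ j : ℕ, j < k → makerClaim σ b k ≠ b j)) ∧
      ContainsCopy {c | ∃ j : ℕ, j ≤ 20 ∧ c = makerClaim σ b j} := by
  refine ⟨sigma, fun b hb => ⟨fun k hk => ?_, ?_⟩⟩
  · obtain ⟨i1, i2, i3, i4⟩ := state_inv h0 b hb k hk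
    have hcl : makerClaim sigma b k = pick (20 - k) (stateS ((List.range k).map b)).2.1
        (stateS ((List.range k).map b)).2.2 := by
      rw [← i1]; rfl
    obtain ⟨p1, p2, -⟩ := pick_spec i4
    rw [← hcl] at p1 p2
    exact ⟨fun j hj h => p1 ((i2 _).2 ⟨j, hj, h⟩), fun j hj h => p2 ((i3 _).2 ⟨j, hj, h⟩)⟩
  · obtain ⟨i1, i2, i3, i4⟩ := state_inv h0 b hb 20 le_rfl
    have hcl : makerClaim sigma b 20 = pick (20 - 20) (stateS ((List.range 20).map b)).2.1
        (stateS ((List.range 20).map b)).2.2 := by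
      rw [← i1]; rfl
    obtain ⟨-, -, p3⟩ := pick_spec i4
    rw [← hcl] at p3
    obtain ⟨x, hx1, hx2⟩ := exists_fresh
      (insert (makerClaim sigma b 20) (stateS ((List.range 20).map b)).2.1)
      (stateS ((List.range 20).map b)).2.2
    have := p3 x hx1 hx2
    refine containsCopy_mono ?_ this
    intro c hc
    rcases Finset.mem_insert.1 (Finset.mem_coe.1 hc) with h | h
    · exact ⟨20, le_rfl, h⟩
    · obtain ⟨j, h1, h2⟩ := (i2 c).1 h
      exact ⟨j, by omega, h2⟩

end Crest.Agent.R35
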