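import Crest.Agent.R35.D000
import Crest.Agent.R35.D001
import Crest.Agent.R35.D010
import Crest.Agent.R35.D011
import Crest.Agent.R35.D100
import Crest.Agent.R35.D101
import Crest.Agent.R35.D110
import Crest.Agent.R35.D111

namespace Crest.Agent.R35

/-- The whole certificate. -/
def root : T := (.node (.node (.node t000 t001) (.node t010 t011)) (.node (.node t100 t101) (.node t110 t111)))

end Crest.Agent.R35
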